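import Mathlib

/-!
P038 (Seymour's second neighbourhood conjecture), oriented graphs whose underlying graph has
bounded clique number.

An oriented graph is given by its arc relation `adj` on a finite vertex type, with no pair of
opposite arcs (hence no loops).  If the underlying undirected graph has no clique on `r + 2`
vertices (`r ≥ 1`), then a vertex `v` of minimum outdegree satisfies
`(r + 1) * |N₁⁺(v)| ≤ 2 * r * |N₂⁺(v)|`.

Proof: let `S = N₁⁺(v)`, `T = N₂⁺(v)`, `δ = |S|`.  Every out-neighbour of `u ∈ S` lies in `S` or
in `T`, so `δ ≤ d⁺_S(u) + |T|`; summing over `S` gives `δ² ≤ e(S) + δ |T|`.  The underlying graph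
induced on `S` has no clique on `r + 1` vertices (add `v`), so Turán's theorem gives
`2 r e(S) ≤ (r - 1) δ²`.
-/

open Finset

namespace Vale.Agent.Results.P038.A_CliqueFreeUnderlying

/-- In a nonempty finite oriented graph whose underlying graph is `K_{r+2}`-free (`r ≥ 1`) some
vertex `v` has `(r + 1) * |N₁⁺(v)| ≤ 2 * r * |N₂⁺(v)|`. -/
theorem result {V : Type*} [Fintype V] [DecidableEq V] [Nonempty V]
    (adj : V → V → Prop) [DecidableRel adj]
    (hasym : ∀ u v, adj u v → ¬ adj v u)
    (r : ℕ) (hr : 1 ≤ r)
    (hfree : (SimpleGraph.fromRel adj).CliqueFree (r + 2)) :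
    ∃ v : V, (r + 1) * (Finset.univ.filter (fun u => adj v u)).card
      ≤ 2 * r * (Finset.univ.filter
          (fun w => w ≠ v ∧ ¬ adj v w ∧ ∃ u, adj v u ∧ adj u w)).card := by
  classical
  set G : SimpleGraph V := SimpleGraph.fromRel adj with hG
  -- a vertex of minimum outdegree
  obtain ⟨v, -, hvmin⟩ := Finset.exists_min_image Finset.univ
    (fun x : V => (Finset.univ.filter (fun u => adj x u)).card) Finset.univ_nonempty
  refine ⟨v, ?_⟩
  set S : Finset V := Finset.univ.filter (fun u => adj v u) with hS
  set T : Finset V := Finset.univ.filter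
          (fun w => w ≠ v ∧ ¬ adj v w ∧ ∃ u, adj v u ∧ adj u w) with hT
  have hSmem : ∀ x, x ∈ S ↔ adj v x := by
    intro x; rw [hS, Finset.mem_filter]; simp
  -- the graph induced on S
  set H : SimpleGraph {x // x ∈ S} := G.comap (Subtype.val) with hH
  have hcardS : Fintype.card {x // x ∈ S} = S.card := Fintype.card_coe S
  -- H is clique-free
  have hHfree : H.CliqueFree (r + 1) := by
    intro s hs
    rw [SimpleGraph.isNClique_iff] at hs
    have hcl : G.IsNClique (r + 1) (s.map (Function.Embedding.subtype _)) := by
      rw [SimpleGraph.isNClique_iff]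
      refine ⟨?_, by rw [Finset.card_map]; exact hs.2⟩
      intro a ha b hb hab
      simp only [Finset.coe_map, Set.mem_image, Finset.mem_coe] at ha hb
      obtain ⟨a', ha', rfl⟩ := ha
      obtain ⟨b', hb', rfl⟩ := hb
      have hab' : a' ≠ b' := by
        intro h; apply hab; rw [h]
      exact hs.1 ha' hb' hab'
    have hins := hcl.insert (a := v) (by
      intro b hb
      simp only [Finset.mem_map] at hb
      obtain ⟨b', _, rfl⟩ := hb
      have hb'S : adj v b'.1 := (hSmem _).1 b'.2
      show G.Adj v b'.1
      rw [hG, SimpleGraph.fromRel_adj]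
      refine ⟨?_, Or.inl hb'S⟩
      intro h
      rw [← h] at hb'S
      exact hasym v v hb'S hb'S)
    exact hfree _ hins
  -- Turan bound on H
  have hturan : 2 * r * H.edgeFinset.card ≤ (r - 1) * S.card ^ 2 := by
    have h1 := hHfree.card_edgeFinset_le
    simp only [hcardS] at h1
    rw [← SimpleGraph.card_edgeFinset_turanGraph] at h1
    have h2 := @SimpleGraph.mul_card_edgeFinset_turanGraph_le S.card r
    calc 2 * r * H.edgeFinset.card ≤ 2 * r * (SimpleGraph.turanGraph S.card r).edgeFinset.card :=
          Nat.mul_le_mul_left _ h1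
      _ ≤ (r - 1) * S.card ^ 2 := h2
  -- arcs inside S
  set P : Finset ({x // x ∈ S} × {x // x ∈ S}) :=
    Finset.univ.filter (fun p => adj p.1.1 p.2.1) with hP
  have hPle : P.card ≤ H.edgeFinset.card := by
    apply Finset.card_le_card_of_injOn (fun p => s(p.1, p.2))
    · intro p hp
      rw [Finset.mem_coe, hP, Finset.mem_filter] at hp
      rw [Finset.mem_coe, SimpleGraph.mem_edgeFinset, SimpleGraph.mem_edgeSet]
      show G.Adj p.1.1 p.2.1
      rw [hG, SimpleGraph.fromRel_adj]
      refine ⟨?_, Or.inl hp.2⟩
      intro h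
      have := hp.2
      rw [h] at this
      exact hasym _ _ this this
    · intro p hp q hq hpq
      rw [Finset.mem_coe, hP, Finset.mem_filter] at hp hq
      simp only [Sym2.eq_iff] at hpq
      rcases hpq with ⟨h1, h2⟩ | ⟨h1, h2⟩
      · exact Prod.ext h1 h2
      · exfalso
        have := hq.2
        rw [← h1, ← h2] at this
        exact hasym _ _ hp.2 this
  have hPsum : P.card = ∑ u : {x // x ∈ S}, (Finset.univ.filter
      (fun w : {x // x ∈ S} => adj u.1 w.1)).card := by
    rw [hP, Finset.card_filter, Fintype.sum_prod_type]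
    apply Finset.sum_congr rfl
    intro u _
    rw [Finset.card_filter]
  -- each out-neighbourhood of u in S is covered
  have hcover : ∀ u : {x // x ∈ S}, S.card ≤ (Finset.univ.filter
      (fun w : {x // x ∈ S} => adj u.1 w.1)).card + T.card := by
    intro u
    have huS : adj v u.1 := (hSmem _).1 u.2
    have hsub : Finset.univ.filter (fun w => adj u.1 w) ⊆
        ((Finset.univ.filter (fun w : {x // x ∈ S} => adj u.1 w.1)).map
          (Function.Embedding.subtype _)) ∪ T := by
      intro w hw
      rw [Finset.mem_filter] at hw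
      rw [Finset.mem_union]
      by_cases hvw : adj v w
      · left
        rw [Finset.mem_map]
        refine ⟨⟨w, (hSmem _).2 hvw⟩, ?_, rfl⟩
        rw [Finset.mem_filter]
        exact ⟨Finset.mem_univ _, hw.2⟩
      · right
        rw [hT, Finset.mem_filter]
        refine ⟨Finset.mem_univ _, ?_, hvw, u.1, huS, hw.2⟩
        intro h
        rw [h] at hw
        exact hasym _ _ huS hw.2
    calc S.card ≤ (Finset.univ.filter (fun w => adj u.1 w)).card := hvmin u.1 (Finset.mem_univ _)
      _ ≤ (((Finset.univ.filter (fun w : {x // x ∈ S} => adj u.1 w.1)).map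
          (Function.Embedding.subtype _)) ∪ T).card := Finset.card_le_card hsub
      _ ≤ _ := by
        refine (Finset.card_union_le _ _).trans ?_
        rw [Finset.card_map]
  have hsum : S.card * S.card ≤ P.card + S.card * T.card := by
    have h := Finset.sum_le_sum (fun (u : {x // x ∈ S}) (_ : u ∈ Finset.univ) => hcover u)
    rw [Finset.sum_const, Finset.sum_add_distrib, Finset.sum_const, ← hPsum, Finset.card_univ,
      hcardS, smul_eq_mul, smul_eq_mul] at h
    exact h
  -- arithmetic
  obtain ⟨k, rfl⟩ : ∃ k, r = k + 1 := ⟨r - 1, by omega⟩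
  simp only [Nat.add_sub_cancel] at hturan
  rcases Nat.eq_zero_or_pos S.card with h0 | hpos
  · rw [h0]; simp
  · have hmain : ((k + 1 + 1) * S.card) * S.card ≤ (2 * (k + 1) * T.card) * S.card := by
      have := Nat.mul_le_mul_left (2 * (k + 1)) (hsum.trans (Nat.add_le_add_right hPle _))
      nlinarith
    exact Nat.le_of_mul_le_mul_right hmain hpos

end Vale.Agent.Results.P038.A_CliqueFreeUnderlying
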