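import Mathlib

namespace Vale.Agent.Results.P038.A_OrbitOutNeighbours

open Finset
open scoped Pointwise

section Kemperman

variable {G : Type*} [Group G] [DecidableEq G]

/-- Induction engine for the unique-representation theorem of Kemperman. -/
theorem kemperman_aux (C : Finset G) :
    ∀ n : ℕ, ∀ A B : Finset G, A * B ⊆ C → (1 : G) ∈ A → (1 : G) ∈ B →
      (∀ a ∈ A, ∀ b ∈ B, a * b = 1 → a = 1) →
      (2 * C.card - (A.card + B.card)) * (C.card + 1) + B.card = n →
      A.card + B.card ≤ (A * B).card + 1 := by
  intro n
  induction n using Nat.strong_induction_on with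
  | _ n ih =>
    intro A B hC h1A h1B huniq hn
    have hAsub : A ⊆ A * B := fun a ha => by
      have := Finset.mul_mem_mul ha h1B
      simpa using this
    have hBsub : B ⊆ A * B := fun b hb => by
      have := Finset.mul_mem_mul h1A hb
      simpa using this
    by_cases hx : ∃ x, x ∈ A ∧ x ∈ B ∧ x ≠ 1
    · obtain ⟨x, hxA, hxB, hx1⟩ := hx
      have hxiB : x⁻¹ ∉ B := fun h => hx1 (huniq x hxA x⁻¹ h (mul_inv_cancel x))
      have hxiA : x⁻¹ ∉ A := fun h => hx1 (by
        have := huniq x⁻¹ h x hxB (inv_mul_cancel x)
        simpa using this)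
      -- the two transforms
      let f : G → G := fun a => a * x
      let g : G → G := fun b => x * b
      have hf : Function.Injective f := mul_left_injective x
      have hg : Function.Injective g := mul_right_injective x
      let A1 : Finset G := A ∪ A.image f
      let B1 : Finset G := B.filter (fun b => g b ∈ B)
      let A2 : Finset G := A.filter (fun a => f a ∈ A)
      let B2 : Finset G := B ∪ B.image g
      have hsub1 : A1 * B1 ⊆ A * B := by
        intro y hy
        obtain ⟨a, ha, b, hb, rfl⟩ := Finset.mem_mul.1 hy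
        have hb' := Finset.mem_filter.1 hb
        rcases Finset.mem_union.1 ha with ha | ha
        · exact Finset.mul_mem_mul ha hb'.1
        · obtain ⟨a0, ha0, rfl⟩ := Finset.mem_image.1 ha
          have : a0 * x * b = a0 * (x * b) := mul_assoc _ _ _
          show a0 * x * b ∈ A * B
          rw [this]
          exact Finset.mul_mem_mul ha0 hb'.2
      have hsub2 : A2 * B2 ⊆ A * B := by
        intro y hy
        obtain ⟨a, ha, b, hb, rfl⟩ := Finset.mem_mul.1 hy
        have ha' := Finset.mem_filter.1 ha
        rcases Finset.mem_union.1 hb with hb | hb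
        · exact Finset.mul_mem_mul ha'.1 hb
        · obtain ⟨b0, hb0, rfl⟩ := Finset.mem_image.1 hb
          have : a * (x * b0) = a * x * b0 := (mul_assoc _ _ _).symm
          show a * (x * b0) ∈ A * B
          rw [this]
          exact Finset.mul_mem_mul ha'.2 hb0
      have h1A1 : (1 : G) ∈ A1 := Finset.mem_union_left _ h1A
      have h1B1 : (1 : G) ∈ B1 := Finset.mem_filter.2 ⟨h1B, by simpa [g] using hxB⟩
      have h1A2 : (1 : G) ∈ A2 := Finset.mem_filter.2 ⟨h1A, by simpa [f] using hxA⟩
      have h1B2 : (1 : G) ∈ B2 := Finset.mem_union_left _ h1B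
      have huniq1 : ∀ a ∈ A1, ∀ b ∈ B1, a * b = 1 → a = 1 := by
        intro a ha b hb hab
        have hb' := Finset.mem_filter.1 hb
        rcases Finset.mem_union.1 ha with ha | ha
        · exact huniq a ha b hb'.1 hab
        · obtain ⟨a0, ha0, rfl⟩ := Finset.mem_image.1 ha
          exfalso
          have h1 : a0 * (x * b) = 1 := by rw [← mul_assoc]; exact hab
          have h2 : a0 = 1 := huniq a0 ha0 (x * b) hb'.2 h1
          rw [h2, one_mul] at h1
          have h3 : b = x⁻¹ := eq_inv_of_mul_eq_one_right h1
          exact hxiB (h3 ▸ hb'.1)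
      have huniq2 : ∀ a ∈ A2, ∀ b ∈ B2, a * b = 1 → a = 1 := by
        intro a ha b hb hab
        have ha' := Finset.mem_filter.1 ha
        rcases Finset.mem_union.1 hb with hb | hb
        · exact huniq a ha'.1 b hb hab
        · obtain ⟨b0, hb0, rfl⟩ := Finset.mem_image.1 hb
          exfalso
          have h1 : a * x * b0 = 1 := by rw [mul_assoc]; exact hab
          have h2 : a * x = 1 := huniq (a * x) ha'.2 b0 hb0 h1
          have h3 : a = x⁻¹ := eq_inv_of_mul_eq_one_left h2
          exact hxiA (h3 ▸ ha'.1)
      -- cardinalities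
      have hA2card : A2.card = (A ∩ A.image f).card := by
        rw [← Finset.card_image_of_injective A2 hf]
        congr 1
        ext y
        simp only [Finset.mem_image, Finset.mem_inter, A2, Finset.mem_filter]
        constructor
        · rintro ⟨a, ⟨ha, hfa⟩, rfl⟩
          exact ⟨hfa, a, ha, rfl⟩
        · rintro ⟨hy, a, ha, rfl⟩
          exact ⟨a, ⟨ha, hy⟩, rfl⟩
      have hB1card : B1.card = (B ∩ B.image g).card := by
        rw [← Finset.card_image_of_injective B1 hg]
        congr 1
        ext y
        simp only [Finset.mem_image, Finset.mem_inter, B1, Finset.mem_filter]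
        constructor
        · rintro ⟨b, ⟨hb, hgb⟩, rfl⟩
          exact ⟨hgb, b, hb, rfl⟩
        · rintro ⟨hy, b, hb, rfl⟩
          exact ⟨b, ⟨hb, hy⟩, rfl⟩
      have hAsum : A1.card + A2.card = 2 * A.card := by
        rw [hA2card]
        have := Finset.card_union_add_card_inter A (A.image f)
        rw [Finset.card_image_of_injective A hf] at this
        have hdef : A1.card = (A ∪ A.image f).card := rfl
        omega
      have hBsum : B2.card + B1.card = 2 * B.card := by
        rw [hB1card]
        have := Finset.card_union_add_card_inter B (B.image g)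
        rw [Finset.card_image_of_injective B hg] at this
        have hdef : B2.card = (B ∪ B.image g).card := rfl
        omega
      have hB1lt : B1.card < B.card := by
        apply Finset.card_lt_card
        refine ⟨Finset.filter_subset _ _, fun hsub => ?_⟩
        have himg : B.image g ⊆ B := by
          intro y hy
          obtain ⟨b, hb, rfl⟩ := Finset.mem_image.1 hy
          exact (Finset.mem_filter.1 (hsub hb)).2
        have heq : B.image g = B :=
          Finset.eq_of_subset_of_card_le himg (by rw [Finset.card_image_of_injective B hg])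
        have h1 : (1 : G) ∈ B.image g := by rw [heq]; exact h1B
        obtain ⟨b, hb, hb1⟩ := Finset.mem_image.1 h1
        have h3 : b = x⁻¹ := eq_inv_of_mul_eq_one_right hb1
        exact hxiB (h3 ▸ hb)
      have hA2lt : A2.card < A.card := by
        apply Finset.card_lt_card
        refine ⟨Finset.filter_subset _ _, fun hsub => ?_⟩
        have himg : A.image f ⊆ A := by
          intro y hy
          obtain ⟨a, ha, rfl⟩ := Finset.mem_image.1 hy
          exact (Finset.mem_filter.1 (hsub ha)).2
        have heq : A.image f = A :=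
          Finset.eq_of_subset_of_card_le himg (by rw [Finset.card_image_of_injective A hf])
        have h1 : (1 : G) ∈ A.image f := by rw [heq]; exact h1A
        obtain ⟨a, ha, ha1⟩ := Finset.mem_image.1 h1
        have h3 : a = x⁻¹ := eq_inv_of_mul_eq_one_left ha1
        exact hxiA (h3 ▸ ha)
      have hC1 : A1 * B1 ⊆ C := hsub1.trans hC
      have hC2 : A2 * B2 ⊆ C := hsub2.trans hC
      have hcard1 : (A1 * B1).card ≤ (A * B).card := Finset.card_le_card hsub1
      have hcard2 : (A2 * B2).card ≤ (A * B).card := Finset.card_le_card hsub2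
      have hA2C : A2.card ≤ C.card := Finset.card_le_card (fun a ha => hC2 (by
        have := Finset.mul_mem_mul ha h1B2
        simpa using this))
      have hB2C : B2.card ≤ C.card := Finset.card_le_card (fun b hb => hC2 (by
        have := Finset.mul_mem_mul h1A2 hb
        simpa using this))
      have hBC : B.card ≤ C.card := Finset.card_le_card (hBsub.trans hC)
      by_cases hcase : A.card + B.card ≤ A1.card + B1.card
      · -- first transform
        have hlt : (2 * C.card - (A1.card + B1.card)) * (C.card + 1) + B1.card < n := by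
          rw [← hn]
          have h1 : 2 * C.card - (A1.card + B1.card) ≤ 2 * C.card - (A.card + B.card) := by
            omega
          have h2 := Nat.mul_le_mul_right (C.card + 1) h1
          omega
        have := ih _ hlt A1 B1 hC1 h1A1 h1B1 huniq1 rfl
        omega
      · -- second transform
        have hgt : A.card + B.card + 1 ≤ A2.card + B2.card := by omega
        have hlt : (2 * C.card - (A2.card + B2.card)) * (C.card + 1) + B2.card < n := by
          rw [← hn]
          have h1 : 2 * C.card - (A2.card + B2.card) + 1 ≤ 2 * C.card - (A.card + B.card) := by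
            omega
          have h2 := Nat.mul_le_mul_right (C.card + 1) h1
          have h3 : (2 * C.card - (A2.card + B2.card) + 1) * (C.card + 1)
              = (2 * C.card - (A2.card + B2.card)) * (C.card + 1) + (C.card + 1) := by ring
          omega
        have := ih _ hlt A2 B2 hC2 h1A2 h1B2 huniq2 rfl
        omega
    · -- base case: A ∩ B = {1}
      have hinter : A ∩ B ⊆ {1} := by
        intro y hy
        have hy' := Finset.mem_inter.1 hy
        by_contra hne
        exact hx ⟨y, hy'.1, hy'.2, fun h => hne (by simp [h])⟩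
      have h1 : (A ∩ B).card ≤ 1 := by
        have := Finset.card_le_card hinter
        simpa using this
      have h2 : (A ∪ B).card ≤ (A * B).card :=
        Finset.card_le_card (Finset.union_subset hAsub hBsub)
      have h3 := Finset.card_union_add_card_inter A B
      omega

/-- Kemperman (1956): if `1 ∈ A`, `1 ∈ B` and `1 = a * b` with `a ∈ A`, `b ∈ B` only for
`a = b = 1`, then `|A| + |B| ≤ |A * B| + 1`. -/
theorem kemperman (A B : Finset G) (h1A : (1 : G) ∈ A) (h1B : (1 : G) ∈ B)
    (huniq : ∀ a ∈ A, ∀ b ∈ B, a * b = 1 → a = 1) :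
    A.card + B.card ≤ (A * B).card + 1 :=
  kemperman_aux (A * B) _ A B (Finset.Subset.refl _) h1A h1B huniq rfl

end Kemperman

section Graph

open Classical in
/-- Internal abbreviation: the permutation preserves the arc relation in both directions. -/
def IsAut {V : Type*} (Adj : V → V → Prop) (σ : Equiv.Perm V) : Prop :=
  ∀ x y, Adj x y ↔ Adj (σ x) (σ y)

theorem isAut_one {V : Type*} (Adj : V → V → Prop) : IsAut Adj 1 := fun _ _ => Iff.rfl

theorem isAut_mul {V : Type*} {Adj : V → V → Prop} {σ τ : Equiv.Perm V}
    (hσ : IsAut Adj σ) (hτ : IsAut Adj τ) : IsAut Adj (σ * τ) := fun x y => by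
  rw [hτ x y, hσ (τ x) (τ y)]
  rfl

theorem isAut_inv {V : Type*} {Adj : V → V → Prop} {σ : Equiv.Perm V}
    (hσ : IsAut Adj σ) : IsAut Adj σ⁻¹ := fun x y => by
  rw [hσ (σ⁻¹ x) (σ⁻¹ y)]
  simp

open Classical in
/-- All fibres of the orbit map over points of the orbit have the size of the stabiliser. -/
theorem card_fiber {V : Type*} [Fintype V] (Adj : V → V → Prop) (v w : V)
    (σ : Equiv.Perm V) (hσ : IsAut Adj σ) (hσv : σ v = w) :
    (Finset.univ.filter (fun g : Equiv.Perm V => IsAut Adj g ∧ g v = w)).card =
      (Finset.univ.filter (fun g : Equiv.Perm V => IsAut Adj g ∧ g v = v)).card := by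
  rw [← Finset.card_image_of_injective
    (Finset.univ.filter (fun g : Equiv.Perm V => IsAut Adj g ∧ g v = v)) (mul_right_injective σ)]
  congr 1
  ext g
  simp only [Finset.mem_filter, Finset.mem_univ, true_and, Finset.mem_image]
  constructor
  · rintro ⟨hg, hgv⟩
    refine ⟨σ⁻¹ * g, ⟨isAut_mul (isAut_inv hσ) hg, ?_⟩, by simp⟩
    rw [Equiv.Perm.mul_apply, hgv, ← hσv]
    simp
  · rintro ⟨h, ⟨hh, hhv⟩, rfl⟩
    refine ⟨isAut_mul hσ hh, ?_⟩
    rw [Equiv.Perm.mul_apply, hhv, hσv]

open Classical in
/-- Every fibre of the orbit map has at most the size of the stabiliser. -/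
theorem card_fiber_le {V : Type*} [Fintype V] (Adj : V → V → Prop) (v w : V) :
    (Finset.univ.filter (fun g : Equiv.Perm V => IsAut Adj g ∧ g v = w)).card ≤
      (Finset.univ.filter (fun g : Equiv.Perm V => IsAut Adj g ∧ g v = v)).card := by
  by_cases h : ∃ σ : Equiv.Perm V, IsAut Adj σ ∧ σ v = w
  · obtain ⟨σ, hσ, hσv⟩ := h
    exact (card_fiber Adj v w σ hσ hσv).le
  · have : (Finset.univ.filter (fun g : Equiv.Perm V => IsAut Adj g ∧ g v = w)) = ∅ := by
      apply Finset.filter_eq_empty_iff.2
      intro g _ hg
      exact h ⟨g, hg⟩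
    rw [this]
    simp

open Classical in
theorem card_preimage {V : Type*} [Fintype V] (Adj : V → V → Prop) (v : V) (W : Finset V) :
    (Finset.univ.filter (fun g : Equiv.Perm V => IsAut Adj g ∧ g v ∈ W)).card =
      ∑ w ∈ W, (Finset.univ.filter (fun g : Equiv.Perm V => IsAut Adj g ∧ g v = w)).card := by
  rw [Finset.card_eq_sum_card_fiberwise (f := fun g : Equiv.Perm V => g v) (t := W)
    (fun g hg => (Finset.mem_filter.1 hg).2.2)]
  apply Finset.sum_congr rfl
  intro w hw
  congr 1
  ext g
  simp only [Finset.mem_filter, Finset.mem_univ, true_and]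
  constructor
  · rintro ⟨⟨hg, _⟩, hgw⟩
    exact ⟨hg, hgw⟩
  · rintro ⟨hg, hgw⟩
    exact ⟨⟨hg, hgw ▸ hw⟩, hgw⟩

open Classical in
theorem core {V : Type*} [Fintype V] (Adj : V → V → Prop)
    (hor : ∀ u w, Adj u w → ¬ Adj w u) (v : V)
    (N1 N2 : Finset V) (hN1 : ∀ u, u ∈ N1 ↔ Adj v u)
    (hN2 : ∀ w, w ∈ N2 ↔ (w ≠ v ∧ ¬ Adj v w ∧ ∃ u, Adj v u ∧ Adj u w))
    (horb : ∀ u, Adj v u → ∃ σ : Equiv.Perm V, IsAut Adj σ ∧ σ v = u) :
    N1.card ≤ N2.card := by
  set H : Finset (Equiv.Perm V) :=
    Finset.univ.filter (fun g : Equiv.Perm V => IsAut Adj g ∧ g v = v) with hH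
  have hm : 0 < H.card := Finset.card_pos.2 ⟨1, by simp [hH, isAut_one]⟩
  set S : Finset (Equiv.Perm V) :=
    Finset.univ.filter (fun g : Equiv.Perm V => IsAut Adj g ∧ g v ∈ N1) with hS
  set R : Finset (Equiv.Perm V) :=
    Finset.univ.filter (fun g : Equiv.Perm V => IsAut Adj g ∧ g v ∈ N2) with hR
  have hScard : S.card = H.card * N1.card := by
    rw [hS, card_preimage Adj v N1]
    rw [Finset.sum_congr rfl (fun w hw => by
      obtain ⟨σ, hσ, hσv⟩ := horb w ((hN1 w).1 hw)
      exact card_fiber Adj v w σ hσ hσv)]
    rw [Finset.sum_const, smul_eq_mul, mul_comm]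
  have hRcard : R.card ≤ H.card * N2.card := by
    rw [hR, card_preimage Adj v N2]
    refine (Finset.sum_le_card_nsmul N2 _ H.card (fun w _ => card_fiber_le Adj v w)).trans ?_
    rw [smul_eq_mul, mul_comm]
  have hvv : ¬ Adj v v := fun h => hor v v h h
  have hSmem : ∀ g, g ∈ S ↔ IsAut Adj g ∧ Adj v (g v) := by
    intro g
    simp [hS, hN1]
  have h1S : (1 : Equiv.Perm V) ∉ S := by
    rw [hSmem]
    rintro ⟨_, h⟩
    exact hvv h
  have huniq : ∀ a ∈ insert (1 : Equiv.Perm V) S, ∀ b ∈ insert (1 : Equiv.Perm V) S,
      a * b = 1 → a = 1 := by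
    intro a ha b hb hab
    rcases Finset.mem_insert.1 ha with ha | ha
    · exact ha
    · rcases Finset.mem_insert.1 hb with hb | hb
      · rw [hb, mul_one] at hab
        exact hab
      · exfalso
        have ha' := (hSmem a).1 ha
        have hb' := (hSmem b).1 hb
        have hb1 : b = a⁻¹ := eq_inv_of_mul_eq_one_right hab
        rw [hb1] at hb'
        have h1 : Adj (a v) (a (a⁻¹ v)) := (ha'.1 v (a⁻¹ v)).1 hb'.2
        have h2 : a (a⁻¹ v) = v := by simp
        rw [h2] at h1
        exact hor v (a v) ha'.2 h1
  have hk := kemperman (insert 1 S) (insert 1 S) (Finset.mem_insert_self _ _)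
    (Finset.mem_insert_self _ _) huniq
  have hsub : insert (1 : Equiv.Perm V) S * insert (1 : Equiv.Perm V) S ⊆ insert 1 (S ∪ R) := by
    intro g hg
    obtain ⟨a, ha, b, hb, rfl⟩ := Finset.mem_mul.1 hg
    rcases Finset.mem_insert.1 ha with ha | ha
    · rw [ha, one_mul]
      rcases Finset.mem_insert.1 hb with hb | hb
      · rw [hb]; exact Finset.mem_insert_self _ _
      · exact Finset.mem_insert_of_mem (Finset.mem_union_left _ hb)
    · rcases Finset.mem_insert.1 hb with hb | hb
      · rw [hb, mul_one]
        exact Finset.mem_insert_of_mem (Finset.mem_union_left _ ha)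
      · apply Finset.mem_insert_of_mem
        have ha' := (hSmem a).1 ha
        have hb' := (hSmem b).1 hb
        have haut : IsAut Adj (a * b) := isAut_mul ha'.1 hb'.1
        have hstep : Adj (a v) ((a * b) v) := by
          rw [Equiv.Perm.mul_apply]
          exact (ha'.1 v (b v)).1 hb'.2
        by_cases hadj : Adj v ((a * b) v)
        · exact Finset.mem_union_left _ ((hSmem _).2 ⟨haut, hadj⟩)
        · apply Finset.mem_union_right
          rw [hR]
          refine Finset.mem_filter.2 ⟨Finset.mem_univ _, haut, (hN2 _).2 ⟨?_, hadj, a v, ha'.2, hstep⟩⟩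
          intro hv
          rw [hv] at hstep
          exact hor v (a v) ha'.2 hstep
  have hcard := Finset.card_le_card hsub
  rw [Finset.card_insert_of_notMem h1S] at hk
  have h3 : (insert (1 : Equiv.Perm V) (S ∪ R)).card ≤ (S ∪ R).card + 1 := Finset.card_insert_le _ _
  have h4 := Finset.card_union_le S R
  have h5 : H.card * N1.card ≤ H.card * N2.card := by omega
  exact Nat.le_of_mul_le_mul_left h5 hm

end Graph

/-- In a finite oriented graph (arc relation `Adj` with no loops and no opposite arcs), let `v`
be a vertex such that every out-neighbour of `v` is the image of `v` under some automorphism of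
the graph. Then `v` has at least as many vertices at directed distance exactly two as it has
out-neighbours. -/
theorem result (V : Type) [Fintype V] [DecidableEq V] (Adj : V → V → Prop) [DecidableRel Adj]
    (hor : ∀ u w, Adj u w → ¬ Adj w u) (v : V)
    (horb : ∀ u, Adj v u →
      ∃ σ : Equiv.Perm V, (∀ x y, Adj x y ↔ Adj (σ x) (σ y)) ∧ σ v = u) :
    (Finset.univ.filter (fun u => Adj v u)).card ≤
      (Finset.univ.filter
        (fun w => w ≠ v ∧ ¬ Adj v w ∧ ∃ u, Adj v u ∧ Adj u w)).card :=
  core Adj hor v _ _ (by simp) (by simp) horb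

end Vale.Agent.Results.P038.A_OrbitOutNeighbours
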